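import Vale.Agent.Lib.P256.Rot

/-!
# P256, hand-in `RotationInvariant`

Let `p(x,y)` be hyperbolic with respect to `(e,0)` and assume that `p` depends on the block of
variables `y` only through `|y|^2`.  Let `f(x,s) = p(x, s, 0, ..., 0)` be its slice, a polynomial
with only one variable in place of the block `y`.  Then `f` is hyperbolic with respect to `(e,0)`
and the hyperbolicity cone of `p` is a spectrahedral shadow if and only if that of `f` is.
-/

namespace Vale.Agent.Results.P256.RotationInvariant

open Vale.Agent.Lib.P256 MvPolynomial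

theorem result {σ ρ : Type} [Fintype σ] [Fintype ρ] [DecidableEq ρ] (j0 : ρ)
    (p : MvPolynomial (σ ⊕ ρ) ℝ) (e : σ → ℝ)
    (hp : IsHyperbolic p (Sum.elim e 0))
    (hrot : ∀ (x : σ → ℝ) (y y' : ρ → ℝ), ∑ j, y j ^ 2 = ∑ j, y' j ^ 2 →
      eval (Sum.elim x y) p = eval (Sum.elim x y') p) :
    IsHyperbolic (slice j0 p) (Sum.elim e 0) ∧
      (IsShadow (hypCone p (Sum.elim e 0)) ↔
        IsShadow (hypCone (slice j0 p) (Sum.elim e 0))) :=
  ⟨slice_isHyperbolic j0 p e hp,
    slice_shadow j0 p e hrot, lift_shadow j0 p e hrot⟩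

end Vale.Agent.Results.P256.RotationInvariant
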